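import Vale.Agent.P298.H462.T1
import Vale.Agent.P298.H845.Cr2
import Vale.Agent.P298.H845.Cr1
import Vale.Agent.P298.H137.Main
import Vale.Agent.P298.H766.Unc
import Vale.Agent.P298.H119.Germ

/-!
# P298 (helper309): constant Milnor numbers of `f_t` and of `f_t | z = 0` imply topological
triviality
-/

namespace Vale.Agent.P298.H309

open Filter Topology Metric Vale.Agent.P298 Vale.Agent.P298.H462

/-- The branches of a reduced space curve and the order of the Jacobian along them. -/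
def EndOrd : Prop :=
  ∀ f e h : (Fin 3 → ℂ) → ℂ, Hol f → Hol e → Hol h → f 0 = 0 → e 0 = 0 → h 0 = 0 →
    xi f e 0 = 0 → (∀ᶠ x in 𝓝 (0 : Fin 3 → ℂ), x ≠ 0 → f x = 0 → e x = 0 → xi f e x ≠ 0) →
    ∀ A : ℕ, Colength ![f, e, h] A →
    ∃ (k : ℕ) (γ : Fin k → ℂ → (Fin 3 → ℂ)) (c : Fin k → ℕ) (u : Fin k → ℂ → ℂ) (R : ℝ),
      Branches f e k γ c u R ∧ (∀ i, 1 ≤ c i) ∧
      Colength ![f, e, jac3 f e h] (A + ∑ i, (c i - 1))

/-! ### The function `z` -/

theorem pd_coord (i j : Fin 3) (x : Fin 3 → ℂ) :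
    pd i (fun x : Fin 3 → ℂ => x j) x = if i = j then 1 else 0 := by
  unfold pd
  have h : HasFDerivAt (fun x : Fin 3 → ℂ => x j)
      (ContinuousLinearMap.proj (R := ℂ) (φ := fun _ : Fin 3 => ℂ) j) x :=
    (ContinuousLinearMap.proj (R := ℂ) (φ := fun _ : Fin 3 => ℂ) j).hasFDerivAt
  rw [h.fderiv]
  show (Pi.single i (1 : ℂ) : Fin 3 → ℂ) j = _
  by_cases hij : i = j
  · subst hij
    simp
  · rw [if_neg hij, Pi.single_eq_of_ne (Ne.symm hij)]

theorem minor01 (f : (Fin 3 → ℂ) → ℂ) :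
    minor2 0 1 f (fun x : Fin 3 → ℂ => x 2) = fun _ => 0 := by
  funext x
  simp [minor2, pd_coord]

theorem minor02 (f : (Fin 3 → ℂ) → ℂ) :
    minor2 0 2 f (fun x : Fin 3 → ℂ => x 2) = pd 0 f := by
  funext x
  simp [minor2, pd_coord]

theorem minor12 (f : (Fin 3 → ℂ) → ℂ) :
    minor2 1 2 f (fun x : Fin 3 → ℂ => x 2) = pd 1 f := by
  funext x
  simp [minor2, pd_coord]

theorem xi_z (f : (Fin 3 → ℂ) → ℂ) (x : Fin 3 → ℂ) :
    xi f (fun x : Fin 3 → ℂ => x 2) x = ![pd 1 f x, -pd 0 f x, 0] := by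
  unfold xi
  rw [minor01, minor02, minor12]

theorem colength_minors {f : (Fin 3 → ℂ) → ℂ} {d : ℕ} (h : Colength ![f, pd 0 f, pd 1 f] d) :
    Colength ![f, minor2 0 1 f (fun x : Fin 3 → ℂ => x 2),
      minor2 0 2 f (fun x : Fin 3 → ℂ => x 2), minor2 1 2 f (fun x : Fin 3 → ℂ => x 2)] d := by
  rw [minor01, minor02, minor12]
  refine (H766.colength_congr (fun j => ?_) (fun j => ?_) d).1 h
  · fin_cases j
    · exact H766.inIdeal_self ![f, fun _ => 0, pd 0 f, pd 1 f] 0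
    · exact H766.inIdeal_self ![f, fun _ => 0, pd 0 f, pd 1 f] 2
    · exact H766.inIdeal_self ![f, fun _ => 0, pd 0 f, pd 1 f] 3
  · fin_cases j
    · exact H766.inIdeal_self ![f, pd 0 f, pd 1 f] 0
    · exact ⟨fun _ _ => 0, fun _ => analyticAt_const, Eventually.of_forall fun x => by simp⟩
    · exact H766.inIdeal_self ![f, pd 0 f, pd 1 f] 1
    · exact H766.inIdeal_self ![f, pd 0 f, pd 1 f] 2


/-! ### A linear form with finite intersection number -/

/-- A germ in two variables with finite Milnor number is not zero. -/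
theorem not_zero_of_milnor {g : (Fin 2 → ℂ) → ℂ} (hg : Hol g) {ν : ℕ} (h : Milnor g ν) :
    ¬ ∀ᶠ x in 𝓝 (0 : Fin 2 → ℂ), g x = 0 := by
  intro h0
  have h1 : ∀ᶠ x in 𝓝 (0 : Fin 2 → ℂ), ∀ i, pd i g x = 0 := by
    filter_upwards [eventually_eventually_nhds.2 h0] with x hx i
    have h2 : g =ᶠ[𝓝 x] fun _ => 0 := hx
    unfold pd
    rw [h2.fderiv_eq]
    simp
  have h2 := eq_zero_of_colength (Λ := ℂ) (0 : ℂ) (fun j p => pd j g p.1)
    (fun j => by
      have h3 : AnalyticAt ℂ (pd j g) ((0 : Fin 2 → ℂ), (0 : ℂ)).1 :=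
        H752.an_clm_apply hg.fderiv analyticAt_const
      exact h3.comp analyticAt_fst) ν (Eventually.of_forall fun _ => h)
  have h3 : Tendsto (fun c : ℂ => ((Pi.single 0 c : Fin 2 → ℂ), (0 : ℂ))) (𝓝 0) (𝓝 (0, 0)) := by
    have h4 : Continuous fun c : ℂ => (Pi.single 0 c : Fin 2 → ℂ) :=
      continuous_single (A := fun _ : Fin 2 => ℂ) 0
    have h5 := (h4.prodMk (continuous_const (y := (0 : ℂ)))).tendsto 0
    simpa using h5
  have h4 : Tendsto (fun c : ℂ => (Pi.single 0 c : Fin 2 → ℂ)) (𝓝 0) (𝓝 0) := by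
    have h5 := (continuous_single (A := fun _ : Fin 2 => ℂ) 0).tendsto 0
    simpa using h5
  have h5 : ∀ᶠ c in 𝓝 (0 : ℂ), c = 0 := by
    filter_upwards [h3.eventually h2, h4.eventually h1] with c h6 h7
    have h8 := h6 h7
    have h9 := congrFun h8 0
    simpa using h9
  have h6 : ∀ᶠ c in 𝓝[≠] (0 : ℂ), False := by
    filter_upwards [h5.filter_mono nhdsWithin_le_nhds, self_mem_nhdsWithin] with c h7 h8
    exact h8 h7
  exact h6.exists.choose_spec

/-- A germ which is not zero is not zero on some line. -/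
theorem exists_dir {g : (Fin 2 → ℂ) → ℂ} (hg : Hol g)
    (h : ¬ ∀ᶠ x in 𝓝 (0 : Fin 2 → ℂ), g x = 0) :
    ∃ v : Fin 2 → ℂ, v ≠ 0 ∧ ¬ ∀ᶠ s in 𝓝 (0 : ℂ), g (s • v) = 0 := by
  by_contra hcon
  push Not at hcon
  refine h ?_
  obtain ⟨ρ, hρ, hball⟩ := Metric.eventually_nhds_iff_ball.1 hg.eventually_analyticAt
  refine Metric.eventually_nhds_iff_ball.2 ⟨ρ, hρ, fun x hx => ?_⟩
  by_cases hx0 : x = 0
  · subst hx0
    have h1 := (hcon (Pi.single 0 1) (by
      intro h2
      have h3 := congrFun h2 0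
      simp at h3)).self_of_nhds
    simpa using h1
  have hn : 0 < ‖x‖ := norm_pos_iff.2 hx0
  have hxρ : ‖x‖ < ρ := by simpa using hx
  set U : Set ℂ := ball 0 (ρ / ‖x‖) with hU
  have han : AnalyticOnNhd ℂ (fun s : ℂ => g (s • x)) U := by
    intro s hs
    have h1 : s • x ∈ ball (0 : Fin 2 → ℂ) ρ := by
      rw [mem_ball, dist_zero_right, norm_smul]
      have h2 : ‖s‖ < ρ / ‖x‖ := by simpa [hU] using hs
      exact (lt_div_iff₀ hn).1 h2
    have h2 : AnalyticAt ℂ (fun s : ℂ => s • x) s := by fun_prop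
    exact AnalyticAt.fun_comp (g := g) (f := fun s : ℂ => s • x) (hball _ h1) h2
  have h0U : (0 : ℂ) ∈ U := mem_ball_self (by positivity)
  have h1U : (1 : ℂ) ∈ U := by
    rw [hU, mem_ball, dist_zero_right, norm_one]
    exact (one_lt_div hn).2 hxρ
  have h2 := han.eqOn_zero_of_preconnected_of_eventuallyEq_zero
    (convex_ball (0 : ℂ) _).isPreconnected h0U (hcon x hx0)
  have h3 := h2 h1U
  simpa using h3

/-- the powers of a coordinate -/
theorem colength_pow (j0 : Fin 3) : ∀ d : ℕ, Colength (Fin.snoc (α := fun _ => (Fin 3 → ℂ) → ℂ)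
    (fun (j : Fin 2) (x : Fin 3 → ℂ) => x (j0.succAbove j)) (fun x => x j0 ^ (d + 1))) (d + 1)
  | 0 => by
    have h := H766.colength_coord_snoc (m := 2) j0
    simpa using h
  | d + 1 => by
    have h := H766.colength_add (m := 2) (a := fun (j : Fin 2) (x : Fin 3 → ℂ) =>
      x (j0.succAbove j)) (u := fun x => x j0 ^ (d + 1)) (v := fun x => x j0)
      (fun j => H766.hol_coord _) ((H766.hol_coord j0).pow (d + 1)) (H766.hol_coord j0)
      (colength_pow j0 d) (H766.colength_coord_snoc j0)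
    have e : (fun x : Fin 3 → ℂ => x j0 ^ (d + 1) * x j0) = fun x => x j0 ^ (d + 1 + 1) := by
      funext x
      rw [pow_succ (x j0) (d + 1)]
    rw [e] at h
    exact h

/-- If `f` is not zero on the first axis then `(f, z, y)` has finite colength. -/
theorem colength_axis {f : (Fin 3 → ℂ) → ℂ} (hf : Hol f) (f0 : f 0 = 0)
    (h : ¬ ∀ᶠ s in 𝓝 (0 : ℂ), f ![s, 0, 0] = 0) :
    ∃ A, Colength ![f, (fun x : Fin 3 → ℂ => x 2), (fun x : Fin 3 → ℂ => x 1)] A := by
  -- the order on the axis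
  have hax : AnalyticAt ℂ (fun s : ℂ => (![s, 0, 0] : Fin 3 → ℂ)) 0 := by
    rw [analyticAt_pi_iff]
    intro i
    fin_cases i
    · exact analyticAt_id
    · exact analyticAt_const
    · exact analyticAt_const
  have e0 : (![(0 : ℂ), 0, 0] : Fin 3 → ℂ) = 0 := by
    funext i
    fin_cases i <;> rfl
  have hk : AnalyticAt ℂ (fun s : ℂ => f ![s, 0, 0]) 0 := by
    refine AnalyticAt.fun_comp (g := f) (f := fun s : ℂ => (![s, 0, 0] : Fin 3 → ℂ)) ?_ hax
    rw [e0]
    exact hf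
  obtain ⟨d, u, hu, hu0, hd⟩ := (hk.exists_eventuallyEq_pow_smul_nonzero_iff).2 h
  have hd0 : d ≠ 0 := by
    rintro rfl
    have h1 := hd.self_of_nhds
    rw [e0, f0] at h1
    simp at h1
    exact hu0 h1.symm
  obtain ⟨d', rfl⟩ := Nat.exists_eq_succ_of_ne_zero hd0
  -- Hadamard
  have hmap : AnalyticAt ℂ (fun p : (Fin 2 → ℂ) × ℂ => (![p.2, p.1 0, p.1 1] : Fin 3 → ℂ))
      (0, 0) := by
    rw [analyticAt_pi_iff]
    intro i
    fin_cases i
    · exact analyticAt_snd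
    · exact ((ContinuousLinearMap.proj (R := ℂ) (φ := fun _ : Fin 2 => ℂ) 0).analyticAt _).comp
        analyticAt_fst
    · exact ((ContinuousLinearMap.proj (R := ℂ) (φ := fun _ : Fin 2 => ℂ) 1).analyticAt _).comp
        analyticAt_fst
  have hφ : AnalyticAt ℂ (fun p : (Fin 2 → ℂ) × ℂ => f ![p.2, p.1 0, p.1 1]) (0, 0) := by
    refine AnalyticAt.fun_comp (g := f)
      (f := fun p : (Fin 2 → ℂ) × ℂ => (![p.2, p.1 0, p.1 1] : Fin 3 → ℂ)) ?_ hmap
    have e1 : (![((0 : Fin 2 → ℂ), (0 : ℂ)).2, ((0 : Fin 2 → ℂ), (0 : ℂ)).1 0,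
        ((0 : Fin 2 → ℂ), (0 : ℂ)).1 1] : Fin 3 → ℂ) = 0 := by
      funext i
      fin_cases i <;> rfl
    rw [e1]
    exact hf
  obtain ⟨ψ, hψ, hψe⟩ := exists_hadamard (0 : ℂ) hφ
  have hre : AnalyticAt ℂ (fun x : Fin 3 → ℂ => ((![x 1, x 2] : Fin 2 → ℂ), x 0)) 0 := by
    refine AnalyticAt.prod ?_ (H766.hol_coord 0)
    rw [analyticAt_pi_iff]
    intro i
    fin_cases i
    · exact H766.hol_coord 1
    · exact H766.hol_coord 2
  have e2 : ((![(0 : Fin 3 → ℂ) 1, (0 : Fin 3 → ℂ) 2] : Fin 2 → ℂ), (0 : Fin 3 → ℂ) 0) =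
      ((0 : Fin 2 → ℂ), (0 : ℂ)) := by
    refine Prod.ext ?_ rfl
    funext i
    fin_cases i <;> rfl
  have hret : Tendsto (fun x : Fin 3 → ℂ => ((![x 1, x 2] : Fin 2 → ℂ), x 0)) (𝓝 0)
      (𝓝 (0, 0)) := by
    have h1 := hre.continuousAt.tendsto
    rwa [e2] at h1
  have hψ' : ∀ i, Hol (fun x : Fin 3 → ℂ => ψ i (![x 1, x 2], x 0)) := by
    intro i
    refine AnalyticAt.fun_comp (g := ψ i)
      (f := fun x : Fin 3 → ℂ => ((![x 1, x 2] : Fin 2 → ℂ), x 0)) ?_ hre
    rw [e2]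
    exact hψ i
  have hu' : Hol (fun x : Fin 3 → ℂ => u (x 0)) := by
    refine AnalyticAt.fun_comp (g := u) (f := fun x : Fin 3 → ℂ => x 0) ?_ (H766.hol_coord 0)
    exact hu
  have hu0' : (fun x : Fin 3 → ℂ => u (x 0)) 0 ≠ 0 := hu0
  have ht0 : Tendsto (fun x : Fin 3 → ℂ => x 0) (𝓝 0) (𝓝 0) :=
    (continuous_apply (0 : Fin 3)).tendsto (0 : Fin 3 → ℂ)
  -- the inclusion of ideals
  refine H766.colength_of_le (s := Fin.snoc (α := fun _ => (Fin 3 → ℂ) → ℂ)
    (fun (j : Fin 2) (x : Fin 3 → ℂ) => x ((0 : Fin 3).succAbove j))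
    (fun x => x 0 ^ (d' + 1))) ?_ ?_ ?_ (colength_pow 0 d')
  · exact H766.hol_snoc (fun j => H766.hol_coord _) ((H766.hol_coord 0).pow _)
  · intro j
    fin_cases j
    · exact hf
    · exact H766.hol_coord 2
    · exact H766.hol_coord 1
  · intro j
    refine Fin.lastCases ?_ (fun i => ?_) j
    · rw [Fin.snoc_last]
      refine ⟨![fun x => (u (x 0))⁻¹, fun x => -(u (x 0))⁻¹ * ψ 1 (![x 1, x 2], x 0),
        fun x => -(u (x 0))⁻¹ * ψ 0 (![x 1, x 2], x 0)], fun j => ?_, ?_⟩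
      · fin_cases j
        · exact hu'.inv hu0'
        · exact ((hu'.inv hu0').neg).mul (hψ' 1)
        · exact ((hu'.inv hu0').neg).mul (hψ' 0)
      · filter_upwards [hret.eventually hψe, ht0.eventually hd,
          hu'.continuousAt.eventually_ne hu0'] with x h1 h2 h3
        have h1' : f x = f ![x 0, 0, 0] + (ψ 0 (![x 1, x 2], x 0) * x 1 +
            ψ 1 (![x 1, x 2], x 0) * x 2) := by
          have e3 : (![x 0, x 1, x 2] : Fin 3 → ℂ) = x := by
            funext i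
            fin_cases i <;> rfl
          have h4 := h1
          simp only [Fin.sum_univ_two, Matrix.cons_val_zero, Matrix.cons_val_one,
            Pi.zero_apply] at h4
          rw [e3] at h4
          rw [h4]
          ring
        have h2' : f ![x 0, 0, 0] = x 0 ^ (d' + 1) * u (x 0) := by
          have h4 := h2
          simp only [sub_zero, smul_eq_mul] at h4
          exact h4
        rw [Fin.sum_univ_three]
        show x 0 ^ (d' + 1) = (u (x 0))⁻¹ * f x + -(u (x 0))⁻¹ * ψ 1 (![x 1, x 2], x 0) * x 2 +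
          -(u (x 0))⁻¹ * ψ 0 (![x 1, x 2], x 0) * x 1
        rw [h1', h2']
        have h5 : u (x 0) ≠ 0 := h3
        field_simp
        ring
    · rw [Fin.snoc_castSucc]
      fin_cases i
      · exact H766.inIdeal_self
          ![f, (fun x : Fin 3 → ℂ => x 2), (fun x : Fin 3 → ℂ => x 1)] 2
      · exact H766.inIdeal_self
          ![f, (fun x : Fin 3 → ℂ => x 2), (fun x : Fin 3 → ℂ => x 1)] 1

/-- A linear form with finite intersection number with the plane section. -/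
theorem exists_form {f : (Fin 3 → ℂ) → ℂ} (hf : Hol f) (f0 : f 0 = 0) {ν : ℕ}
    (hν : Milnor (fun x : Fin 2 → ℂ => f ![x 0, x 1, 0]) ν) :
    ∃ (h : (Fin 3 → ℂ) → ℂ) (A : ℕ), Hol h ∧ h 0 = 0 ∧
      Colength ![f, (fun x : Fin 3 → ℂ => x 2), h] A := by
  have hpl : AnalyticAt ℂ (fun x : Fin 2 → ℂ => (![x 0, x 1, 0] : Fin 3 → ℂ)) 0 := by
    rw [analyticAt_pi_iff]
    intro i
    fin_cases i
    · exact H766.hol_coord 0
    · exact H766.hol_coord 1
    · exact analyticAt_const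
  have hpl0 : (![(0 : Fin 2 → ℂ) 0, (0 : Fin 2 → ℂ) 1, 0] : Fin 3 → ℂ) = 0 := by
    funext i
    fin_cases i <;> rfl
  have hg : Hol (fun x : Fin 2 → ℂ => f ![x 0, x 1, 0]) := by
    refine AnalyticAt.fun_comp (g := f)
      (f := fun x : Fin 2 → ℂ => (![x 0, x 1, 0] : Fin 3 → ℂ)) ?_ hpl
    rw [hpl0]
    exact hf
  obtain ⟨v, hv0, hv⟩ := exists_dir hg (not_zero_of_milnor hg hν)
  obtain ⟨w, hw⟩ : ∃ w : Fin 2 → ℂ, v 0 * w 1 - v 1 * w 0 ≠ 0 := by
    by_cases h0 : v 0 = 0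
    · refine ⟨![1, 0], ?_⟩
      have h1 : v 1 ≠ 0 := by
        intro h1
        refine hv0 ?_
        funext i
        fin_cases i
        · exact h0
        · exact h1
      simpa using h1
    · refine ⟨![0, 1], ?_⟩
      simpa using h0
  set D : ℂ := v 0 * w 1 - v 1 * w 0 with hD
  set φ : (Fin 3 → ℂ) → (Fin 3 → ℂ) := fun x =>
    ![v 0 * x 0 + w 0 * x 1, v 1 * x 0 + w 1 * x 1, x 2] with hφ
  set ψ : (Fin 3 → ℂ) → (Fin 3 → ℂ) := fun x =>
    ![(w 1 * x 0 - w 0 * x 1) / D, (v 0 * x 1 - v 1 * x 0) / D, x 2] with hψ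
  have c0 : Hol (fun x : Fin 3 → ℂ => x 0) := H766.hol_coord 0
  have c1 : Hol (fun x : Fin 3 → ℂ => x 1) := H766.hol_coord 1
  have c2 : Hol (fun x : Fin 3 → ℂ => x 2) := H766.hol_coord 2
  have hφa : AnalyticAt ℂ φ 0 := by
    rw [analyticAt_pi_iff]
    intro i
    fin_cases i
    · exact (analyticAt_const.mul c0).add (analyticAt_const.mul c1)
    · exact (analyticAt_const.mul c0).add (analyticAt_const.mul c1)
    · exact c2
  have hψ1 : Hol (fun x : Fin 3 → ℂ => (v 0 * x 1 - v 1 * x 0) / D) :=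
    ((analyticAt_const.mul c1).sub (analyticAt_const.mul c0)).div analyticAt_const hw
  have hψa : AnalyticAt ℂ ψ 0 := by
    rw [analyticAt_pi_iff]
    intro i
    fin_cases i
    · exact ((analyticAt_const.mul c0).sub (analyticAt_const.mul c1)).div analyticAt_const hw
    · exact hψ1
    · exact c2
  have hφ0 : φ 0 = 0 := by
    funext i
    fin_cases i <;> simp [hφ]
  have hψ0 : ψ 0 = 0 := by
    funext i
    fin_cases i <;> simp [hψ]
  have h12 : ∀ x, ψ (φ x) = x := by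
    intro x
    funext i
    fin_cases i
    · show (w 1 * (v 0 * x 0 + w 0 * x 1) - w 0 * (v 1 * x 0 + w 1 * x 1)) / D = x 0
      rw [div_eq_iff hw, hD]
      ring
    · show (v 0 * (v 1 * x 0 + w 1 * x 1) - v 1 * (v 0 * x 0 + w 0 * x 1)) / D = x 1
      rw [div_eq_iff hw, hD]
      ring
    · rfl
  have h21 : ∀ x, φ (ψ x) = x := by
    intro x
    funext i
    fin_cases i
    · show v 0 * ((w 1 * x 0 - w 0 * x 1) / D) + w 0 * ((v 0 * x 1 - v 1 * x 0) / D) = x 0
      rw [← mul_div_assoc, ← mul_div_assoc, ← add_div, div_eq_iff hw, hD]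
      ring
    · show v 1 * ((w 1 * x 0 - w 0 * x 1) / D) + w 1 * ((v 0 * x 1 - v 1 * x 0) / D) = x 1
      rw [← mul_div_assoc, ← mul_div_assoc, ← add_div, div_eq_iff hw, hD]
      ring
    · rfl
  have hfφ : Hol (fun x => f (φ x)) := H845.hol_comp hf hφa hφ0
  obtain ⟨A, hA⟩ := colength_axis hfφ (by rw [hφ0, f0]) (by
    intro h1
    refine hv ?_
    filter_upwards [h1] with s hs
    have e : φ ![s, 0, 0] = ![(s • v) 0, (s • v) 1, 0] := by
      funext i
      fin_cases i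
      · show v 0 * s + w 0 * 0 = s * v 0
        ring
      · show v 1 * s + w 1 * 0 = s * v 1
        ring
      · rfl
    rw [e] at hs
    exact hs)
  refine ⟨fun x => (v 0 * x 1 - v 1 * x 0) / D, A, hψ1, by simp, ?_⟩
  have h3 := H845.colength_comp hψa hφa hψ0 hφ0 (Eventually.of_forall h21)
    (Eventually.of_forall h12) hA
  have e : (fun (j : Fin 3) (x : Fin 3 → ℂ) => ![fun x => f (φ x), (fun x : Fin 3 → ℂ => x 2),
      (fun x : Fin 3 → ℂ => x 1)] j (ψ x)) = ![f, (fun x : Fin 3 → ℂ => x 2),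
      fun x => (v 0 * x 1 - v 1 * x 0) / D] := by
    funext j x
    fin_cases j
    · show f (φ (ψ x)) = f x
      rw [h21]
    · rfl
    · rfl
  rw [e] at h3
  exact h3

/-! ### The theorem -/

/-- **N2.** Constant Milnor numbers of `f_t` and of `f_t | z = 0` imply topological triviality. -/
theorem n2asm (hEO : EndOrd) : H845.N2Asm := by
  intro r F μ ν hr hF hμ hν
  have h0r : (0 : ℂ) ∈ ball (0 : ℂ) r := mem_ball_self hr
  by_cases hcrit : ∀ i, pd i (fun x => F x 0) 0 = 0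
  swap
  · push Not at hcrit
    obtain ⟨i, hi⟩ := hcrit
    exact H845.cr1 hr hF i hi
  have hμ0 : μ ≠ 0 := H845.milnor_ne_zero (hμ 0 h0r) hcrit
  have hol : ∀ t ∈ ball (0 : ℂ) r, Hol (fun x => F x t) := fun t ht =>
    AnalyticAt.comp₂ (h := fun p : (Fin 3 → ℂ) × ℂ => F p.1 p.2) (f := fun x => x)
      (g := fun _ => t) (hF t ht).1 analyticAt_id analyticAt_const
  have hpd : ∀ t ∈ ball (0 : ℂ) r, ∀ i, pd i (fun x => F x t) 0 = 0 := fun t ht i =>
    H845.pd_zero_of_milnor (hol t ht) (hμ t ht) hμ0 i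
  have hcol : ∀ t ∈ ball (0 : ℂ) r,
      Colength ![(fun x => F x t), pd 0 (fun x => F x t), pd 1 (fun x => F x t)] (μ + ν) :=
    fun t ht => H766.N2a (hol t ht) (hF t ht).2 (hμ t ht) (hν t ht)
  -- the curves are smooth outside the origin
  have han : AnalyticAt ℂ (fun p : (Fin 3 → ℂ) × ℂ => F p.1 p.2) (0, 0) := (hF 0 h0r).1
  have hz : ∀ᶠ p in 𝓝 ((0 : Fin 3 → ℂ), (0 : ℂ)), F p.1 p.2 = 0 →
      pd 0 (fun x => F x p.2) p.1 = 0 → pd 1 (fun x => F x p.2) p.1 = 0 → p.1 = 0 := by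
    have h1 := eq_zero_of_colength (n := 3) (Λ := ℂ) (0 : ℂ)
      ![fun p => F p.1 p.2, fun p => pd 0 (fun x => F x p.2) p.1,
        fun p => pd 1 (fun x => F x p.2) p.1] (fun j => by
          fin_cases j
          · exact han
          · exact analyticAt_pd han 0
          · exact analyticAt_pd han 1) (μ + ν) (by
        filter_upwards [isOpen_ball.mem_nhds h0r] with t ht
        have h2 := hcol t ht
        have e : (fun (j : Fin 3) (x : Fin 3 → ℂ) =>
            (![fun p => F p.1 p.2, fun p => pd 0 (fun x => F x p.2) p.1,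
              fun p => pd 1 (fun x => F x p.2) p.1] : Fin 3 → (Fin 3 → ℂ) × ℂ → ℂ) j (x, t)) =
            ![(fun x => F x t), pd 0 (fun x => F x t), pd 1 (fun x => F x t)] := by
          funext j x
          fin_cases j <;> rfl
        rw [e]
        exact h2)
    filter_upwards [h1] with p hp h2 h3 h4
    refine hp fun j => ?_
    fin_cases j
    · exact h2
    · exact h3
    · exact h4
  obtain ⟨ε, hε, hball⟩ := Metric.eventually_nhds_iff_ball.1 (hz.and han.eventually_analyticAt)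
  have hmem : ∀ x ∈ ball (0 : Fin 3 → ℂ) ε, ∀ t ∈ ball (0 : ℂ) (min ε r),
      (x, t) ∈ ball ((0 : Fin 3 → ℂ), (0 : ℂ)) ε := by
    intro x hx t ht
    rw [mem_ball, Prod.dist_eq, max_lt_iff]
    exact ⟨hx, lt_of_lt_of_le ht (min_le_left _ _)⟩
  have hFam : Fam F (fun x _ => x 2) ε (min ε r) := by
    refine ⟨hε, lt_min hε hr, ?_, ?_, ?_, ?_, ?_, ?_⟩
    · exact fun x hx t ht => (hball _ (hmem x hx t ht)).2
    · intro x hx t ht
      exact ((ContinuousLinearMap.proj (R := ℂ) (φ := fun _ : Fin 3 => ℂ) 2).analyticAt _).comp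
        analyticAt_fst
    · exact fun t ht => (hF t (ball_subset_ball (min_le_right _ _) ht)).2
    · exact fun t ht => rfl
    · intro t ht
      rw [xi_z, hpd t (ball_subset_ball (min_le_right _ _) ht),
        hpd t (ball_subset_ball (min_le_right _ _) ht)]
      funext i
      fin_cases i <;> simp
    · intro x hx t ht h1 h2 h3 h4
      rw [xi_z] at h4
      have h5 : pd 1 (fun x => F x t) x = 0 := congrFun h4 0
      have h6 : -pd 0 (fun x => F x t) x = 0 := congrFun h4 1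
      exact h3 ((hball _ (hmem x hx t ht)).1 h1 (neg_eq_zero.1 h6) h5)
  -- the companion
  have hcomp : H119.Companion r F (fun x _ => x 2) := by
    refine ⟨fun t ht => ⟨((ContinuousLinearMap.proj (R := ℂ)
      (φ := fun _ : Fin 3 => ℂ) 2).analyticAt _).comp analyticAt_fst, rfl⟩, μ + ν,
      fun t ht => colength_minors (hcol t ht)⟩
  -- the branches
  have hbr : ∀ t ∈ ball (0 : ℂ) (min ε r), ∃ (k : ℕ) (γ : Fin k → ℂ → (Fin 3 → ℂ))
      (c : Fin k → ℕ) (u : Fin k → ℂ → ℂ) (R : ℝ),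
      Branches (fun x => F x t) (fun x : Fin 3 → ℂ => x 2) k γ c u R ∧ (∀ i, 1 ≤ c i) ∧
        ∑ i, (c i - 1) = ν - 1 := by
    intro t ht
    have htr : t ∈ ball (0 : ℂ) r := ball_subset_ball (min_le_right _ _) ht
    obtain ⟨h, A, hh, hh0, hA⟩ := exists_form (hol t htr) (hF t htr).2 (hν t htr)
    obtain ⟨k, γ, c, u, R, h1, h2, h3⟩ := hEO (fun x => F x t) (fun x => x 2) h (hol t htr)
      (H766.hol_coord 2) hh (hF t htr).2 rfl hh0 (hFam.xi0 t ht) (by
        filter_upwards [isOpen_ball.mem_nhds (mem_ball_self hε)] with x hx h1 h2 h3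
        exact hFam.xi_ne x hx t ht h2 h3 h1) A hA
    refine ⟨k, γ, c, u, R, h1, h2, ?_⟩
    obtain ⟨a, ha, ha'⟩ := H137.Main.leGreuel (hol t htr) (H766.hol_coord 2) hh (hF t htr).2 rfl
      hh0 (hpd t htr) (hμ t htr) h3 hA
    have hminor : ∀ j : Fin 4, Hol (![(fun x => F x t),
        minor2 0 1 (fun x => F x t) (fun x : Fin 3 → ℂ => x 2),
        minor2 0 2 (fun x => F x t) (fun x : Fin 3 → ℂ => x 2),
        minor2 1 2 (fun x => F x t) (fun x : Fin 3 → ℂ => x 2)] j) := by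
      have hp : ∀ i, Hol (pd i (fun x => F x t)) := fun i =>
        H752.an_clm_apply (hol t htr).fderiv analyticAt_const
      intro j
      rw [minor01, minor02, minor12]
      fin_cases j
      · exact hol t htr
      · exact analyticAt_const
      · exact hp 0
      · exact hp 1
    have h4 : a = μ + ν := H137.colength_unique hminor ha (colength_minors (hcol t htr))
    omega
  obtain ⟨k, γ, ρ, hγ⟩ := t1_full F (fun x _ => x 2) ε (min ε r) hFam (ν - 1) hbr
  obtain ⟨δ, h1, h2, Φ, h3, h4, h5⟩ := H119.isTriv_of_hasFlag hr hF hμ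
    (Or.inr ⟨_, hcomp, Or.inr (Or.inr ⟨k, γ, ρ, hγ⟩)⟩)
  exact ⟨δ, h1, h2, Φ, h3, h4, h5⟩

end Vale.Agent.P298.H309
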