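import Vale.Agent.P298.H309.N2
import Vale.Agent.P298.H941.EndOrd

/-!
# P298 (helper309): N2-asm without hypotheses
-/

namespace Vale.Agent.P298.H309

open Filter Topology Metric Vale.Agent.P298

theorem endOrd : EndOrd := fun f e h hf he hh f0 e0 h0 hx hne A hA =>
  H941.endOrd f e h hf he hh f0 e0 h0 hx hne A hA

/-- **N2.** If the Milnor numbers of `f_t` and of `f_t | z = 0` are constant then the family is
topologically trivial. -/
theorem n2Asm : H845.N2Asm := n2asm endOrd

end Vale.Agent.P298.H309
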